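import Vale.Agent.P333.H241.Tf.Str

set_option autoImplicit false
set_option maxRecDepth 100000

/-!
P333: forced greedy steps.
-/

namespace Vale.Agent.P333.H241.Tf

open Vale.Agent.P333.H241

theorem st3 (n : ℕ) (h : Len (m3 :: [m2, m1, x0, y0, x3, y3, h0, h4]) n) :
    Len [m2, m1, x0, y0, x2, y2, x3, y3, h0, h4] n := by
  have hp : List.Perm [m2, m1, x0, y0, x2, y2, x3, y3, h0, h4] (x2 :: y2 :: [m2, m1, x0, y0, x3, y3, h0, h4]) := by
    rw [← List.isPerm_iff]
    decide +kernel
  have hnd : List.Nodup (x2 :: y2 :: [m2, m1, x0, y0, x3, y3, h0, h4]) := by decide +kernel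
  have hk : List.drop (x2.length - (140 + 1)) x2 = List.take (140 + 1) y2 := by decide +kernel
  have hg : goodEx x2 y2 (x2 :: y2 :: [m2, m1, x0, y0, x3, y3, h0, h4]) 140 = true := by decide +kernel
  have hgxy : noOv (140 + 1) y2 x2 x2.length = true := by decide +kernel
  have hm : List.take (x2.length - (140 + 1)) x2 ++ y2 = m3 := by decide +kernel
  exact forced x2 y2 m3 [m2, m1, x0, y0, x3, y3, h0, h4] 140 n hp hnd (by decide +kernel) hk hg hgxy hm h

theorem st4 (n : ℕ) (h : Len (m4 :: [m3, m1, x0, y0, x3, y3, h4]) n) :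
    Len [m3, m2, m1, x0, y0, x3, y3, h0, h4] n := by
  have hp : List.Perm [m3, m2, m1, x0, y0, x3, y3, h0, h4] (h0 :: m2 :: [m3, m1, x0, y0, x3, y3, h4]) := by
    rw [← List.isPerm_iff]
    decide +kernel
  have hnd : List.Nodup (h0 :: m2 :: [m3, m1, x0, y0, x3, y3, h4]) := by decide +kernel
  have hk : List.drop (h0.length - (112 + 1)) h0 = List.take (112 + 1) m2 := by decide +kernel
  have hg : goodEx h0 m2 (h0 :: m2 :: [m3, m1, x0, y0, x3, y3, h4]) 112 = true := by decide +kernel
  have hgxy : noOv (112 + 1) m2 h0 h0.length = true := by decide +kernel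
  have hm : List.take (h0.length - (112 + 1)) h0 ++ m2 = m4 := by decide +kernel
  exact forced h0 m2 m4 [m3, m1, x0, y0, x3, y3, h4] 112 n hp hnd (by decide +kernel) hk hg hgxy hm h

theorem st5 (n : ℕ) (h : Len (m5 :: [m4, m3, m1, x3, y3, h4]) n) :
    Len [m4, m3, m1, x0, y0, x3, y3, h4] n := by
  have hp : List.Perm [m4, m3, m1, x0, y0, x3, y3, h4] (x0 :: y0 :: [m4, m3, m1, x3, y3, h4]) := by
    rw [← List.isPerm_iff]
    decide +kernel
  have hnd : List.Nodup (x0 :: y0 :: [m4, m3, m1, x3, y3, h4]) := by decide +kernel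
  have hk : List.drop (x0.length - (110 + 1)) x0 = List.take (110 + 1) y0 := by decide +kernel
  have hg : goodEx x0 y0 (x0 :: y0 :: [m4, m3, m1, x3, y3, h4]) 110 = true := by decide +kernel
  have hgxy : noOv (110 + 1) y0 x0 x0.length = true := by decide +kernel
  have hm : List.take (x0.length - (110 + 1)) x0 ++ y0 = m5 := by decide +kernel
  exact forced x0 y0 m5 [m4, m3, m1, x3, y3, h4] 110 n hp hnd (by decide +kernel) hk hg hgxy hm h

end Vale.Agent.P333.H241.Tf
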