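import Vale.Agent.P333.H241.Tf.Str

set_option autoImplicit false
set_option maxRecDepth 100000

/-!
P333: forced greedy steps.
-/

namespace Vale.Agent.P333.H241.Tf

open Vale.Agent.P333.H241

theorem st6 (n : ℕ) (h : Len (m6 :: [m5, m3, m1, x3, y3]) n) :
    Len [m5, m4, m3, m1, x3, y3, h4] n := by
  have hp : List.Perm [m5, m4, m3, m1, x3, y3, h4] (m4 :: h4 :: [m5, m3, m1, x3, y3]) := by
    rw [← List.isPerm_iff]
    decide +kernel
  have hnd : List.Nodup (m4 :: h4 :: [m5, m3, m1, x3, y3]) := by decide +kernel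
  have hk : List.drop (m4.length - (102 + 1)) m4 = List.take (102 + 1) h4 := by decide +kernel
  have hg : goodEx m4 h4 (m4 :: h4 :: [m5, m3, m1, x3, y3]) 102 = true := by decide +kernel
  have hgxy : noOv (102 + 1) h4 m4 m4.length = true := by decide +kernel
  have hm : List.take (m4.length - (102 + 1)) m4 ++ h4 = m6 := by decide +kernel
  exact forced m4 h4 m6 [m5, m3, m1, x3, y3] 102 n hp hnd (by decide +kernel) hk hg hgxy hm h

theorem st7 (n : ℕ) (h : Len (m7 :: [m6, m5, m3, m1]) n) :
    Len [m6, m5, m3, m1, x3, y3] n := by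
  have hp : List.Perm [m6, m5, m3, m1, x3, y3] (x3 :: y3 :: [m6, m5, m3, m1]) := by
    rw [← List.isPerm_iff]
    decide +kernel
  have hnd : List.Nodup (x3 :: y3 :: [m6, m5, m3, m1]) := by decide +kernel
  have hk : List.drop (x3.length - (100 + 1)) x3 = List.take (100 + 1) y3 := by decide +kernel
  have hg : goodEx x3 y3 (x3 :: y3 :: [m6, m5, m3, m1]) 100 = true := by decide +kernel
  have hgxy : noOv (100 + 1) y3 x3 x3.length = true := by decide +kernel
  have hm : List.take (x3.length - (100 + 1)) x3 ++ y3 = m7 := by decide +kernel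
  exact forced x3 y3 m7 [m6, m5, m3, m1] 100 n hp hnd (by decide +kernel) hk hg hgxy hm h

theorem st8 (n : ℕ) (h : Len (m8 :: [m7, m6, m5]) n) :
    Len [m7, m6, m5, m3, m1] n := by
  have hp : List.Perm [m7, m6, m5, m3, m1] (m3 :: m1 :: [m7, m6, m5]) := by
    rw [← List.isPerm_iff]
    decide +kernel
  have hnd : List.Nodup (m3 :: m1 :: [m7, m6, m5]) := by decide +kernel
  have hk : List.drop (m3.length - (36 + 1)) m3 = List.take (36 + 1) m1 := by decide +kernel
  have hg : goodEx m3 m1 (m3 :: m1 :: [m7, m6, m5]) 36 = true := by decide +kernel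
  have hgxy : noOv (36 + 1) m1 m3 m3.length = true := by decide +kernel
  have hm : List.take (m3.length - (36 + 1)) m3 ++ m1 = m8 := by decide +kernel
  exact forced m3 m1 m8 [m7, m6, m5] 36 n hp hnd (by decide +kernel) hk hg hgxy hm h

end Vale.Agent.P333.H241.Tf
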