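import Vale.Agent.P333.H241.Tf.Str

set_option autoImplicit false
set_option maxRecDepth 100000

/-!
P333: forced greedy steps.
-/

namespace Vale.Agent.P333.H241.Tf

open Vale.Agent.P333.H241

theorem st9 (n : ℕ) (h : Len (m9 :: [m6, m5]) n) :
    Len [m8, m7, m6, m5] n := by
  have hp : List.Perm [m8, m7, m6, m5] (m7 :: m8 :: [m6, m5]) := by
    rw [← List.isPerm_iff]
    decide +kernel
  have hnd : List.Nodup (m7 :: m8 :: [m6, m5]) := by decide +kernel
  have hk : List.drop (m7.length - (4 + 1)) m7 = List.take (4 + 1) m8 := by decide +kernel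
  have hg : goodEx m7 m8 (m7 :: m8 :: [m6, m5]) 4 = true := by decide +kernel
  have hgxy : noOv (4 + 1) m8 m7 m7.length = true := by decide +kernel
  have hm : List.take (m7.length - (4 + 1)) m7 ++ m8 = m9 := by decide +kernel
  exact forced m7 m8 m9 [m6, m5] 4 n hp hnd (by decide +kernel) hk hg hgxy hm h

end Vale.Agent.P333.H241.Tf
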