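import Vale.Agent.P333.H241.Tf.Str

set_option autoImplicit false
set_option maxRecDepth 100000

/-!
P333: forced greedy steps.
-/

namespace Vale.Agent.P333.H241.Tf

open Vale.Agent.P333.H241

theorem st0 (n : ℕ) (h : Len (m0 :: [x0, y0, x1, y1, x2, y2, x3, y3, h0, h3, h4]) n) :
    Len [x0, y0, x1, y1, x2, y2, x3, y3, h0, h1, h2, h3, h4] n := by
  have hp : List.Perm [x0, y0, x1, y1, x2, y2, x3, y3, h0, h1, h2, h3, h4] (h1 :: h2 :: [x0, y0, x1, y1, x2, y2, x3, y3, h0, h3, h4]) := by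
    rw [← List.isPerm_iff]
    decide +kernel
  have hnd : List.Nodup (h1 :: h2 :: [x0, y0, x1, y1, x2, y2, x3, y3, h0, h3, h4]) := by decide +kernel
  have hk : List.drop (h1.length - (147 + 1)) h1 = List.take (147 + 1) h2 := by decide +kernel
  have hg : goodEx h1 h2 (h1 :: h2 :: [x0, y0, x1, y1, x2, y2, x3, y3, h0, h3, h4]) 147 = true := by decide +kernel
  have hgxy : noOv (147 + 1) h2 h1 h1.length = true := by decide +kernel
  have hm : List.take (h1.length - (147 + 1)) h1 ++ h2 = m0 := by decide +kernel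
  exact forced h1 h2 m0 [x0, y0, x1, y1, x2, y2, x3, y3, h0, h3, h4] 147 n hp hnd (by decide +kernel) hk hg hgxy hm h

theorem st1 (n : ℕ) (h : Len (m1 :: [m0, x0, y0, x2, y2, x3, y3, h0, h3, h4]) n) :
    Len [m0, x0, y0, x1, y1, x2, y2, x3, y3, h0, h3, h4] n := by
  have hp : List.Perm [m0, x0, y0, x1, y1, x2, y2, x3, y3, h0, h3, h4] (x1 :: y1 :: [m0, x0, y0, x2, y2, x3, y3, h0, h3, h4]) := by
    rw [← List.isPerm_iff]
    decide +kernel
  have hnd : List.Nodup (x1 :: y1 :: [m0, x0, y0, x2, y2, x3, y3, h0, h3, h4]) := by decide +kernel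
  have hk : List.drop (x1.length - (145 + 1)) x1 = List.take (145 + 1) y1 := by decide +kernel
  have hg : goodEx x1 y1 (x1 :: y1 :: [m0, x0, y0, x2, y2, x3, y3, h0, h3, h4]) 145 = true := by decide +kernel
  have hgxy : noOv (145 + 1) y1 x1 x1.length = true := by decide +kernel
  have hm : List.take (x1.length - (145 + 1)) x1 ++ y1 = m1 := by decide +kernel
  exact forced x1 y1 m1 [m0, x0, y0, x2, y2, x3, y3, h0, h3, h4] 145 n hp hnd (by decide +kernel) hk hg hgxy hm h

theorem st2 (n : ℕ) (h : Len (m2 :: [m1, x0, y0, x2, y2, x3, y3, h0, h4]) n) :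
    Len [m1, m0, x0, y0, x2, y2, x3, y3, h0, h3, h4] n := by
  have hp : List.Perm [m1, m0, x0, y0, x2, y2, x3, y3, h0, h3, h4] (m0 :: h3 :: [m1, x0, y0, x2, y2, x3, y3, h0, h4]) := by
    rw [← List.isPerm_iff]
    decide +kernel
  have hnd : List.Nodup (m0 :: h3 :: [m1, x0, y0, x2, y2, x3, y3, h0, h4]) := by decide +kernel
  have hk : List.drop (m0.length - (142 + 1)) m0 = List.take (142 + 1) h3 := by decide +kernel
  have hg : goodEx m0 h3 (m0 :: h3 :: [m1, x0, y0, x2, y2, x3, y3, h0, h4]) 142 = true := by decide +kernel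
  have hgxy : noOv (142 + 1) h3 m0 m0.length = true := by decide +kernel
  have hm : List.take (m0.length - (142 + 1)) m0 ++ h3 = m2 := by decide +kernel
  exact forced m0 h3 m2 [m1, x0, y0, x2, y2, x3, y3, h0, h4] 142 n hp hnd (by decide +kernel) hk hg hgxy hm h

end Vale.Agent.P333.H241.Tf
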